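import Vale.Agent.Lib.P154Anti.Cert.D7.Table1
import Vale.Agent.Lib.P154Anti.Cert.D7.Masses

namespace Vale.Agent.Lib.P154Anti.Cert.D7

open Vale.Agent.Lib.P154Anti

theorem L50 : lvlOK3 cfg par tblI1 tblE1 vE vc Q50 17591024183367 Q51 = true := by decide +kernel

theorem L51 : lvlOK3 cfg par tblI1 tblE1 vE vc Q51 17591164820901 Q52 = true := by decide +kernel

theorem L52 : lvlOK3 cfg par tblI1 tblE1 vE vc Q52 17591180008718 Q53 = true := by decide +kernel

theorem L53 : lvlOK3 cfg par tblI1 tblE1 vE vc Q53 17591092869184 Q54 = true := by decide +kernel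

theorem L54 : lvlOK3 cfg par tblI1 tblE1 vE vc Q54 17591045988403 Q55 = true := by decide +kernel

theorem L55 : lvlOK3 cfg par tblI1 tblE1 vE vc Q55 17591134861610 Q56 = true := by decide +kernel

theorem L56 : lvlOK3 cfg par tblI1 tblE1 vE vc Q56 17590973234066 Q57 = true := by decide +kernel

theorem L57 : lvlOK3 cfg par tblI1 tblE1 vE vc Q57 17591161438392 Q58 = true := by decide +kernel

theorem L58 : lvlOK3 cfg par tblI1 tblE1 vE vc Q58 17591158372972 Q59 = true := by decide +kernel

theorem L59 : lvlOK3 cfg par tblI1 tblE1 vE vc Q59 17590954618621 Q60 = true := by decide +kernel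

end Vale.Agent.Lib.P154Anti.Cert.D7
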