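import Vale.Agent.Lib.P154Anti.Cert.D7.Table1
import Vale.Agent.Lib.P154Anti.Cert.D7.Masses

namespace Vale.Agent.Lib.P154Anti.Cert.D7

open Vale.Agent.Lib.P154Anti

theorem L60 : lvlOK3 cfg par tblI1 tblE1 vE vc Q60 17591161932120 Q61 = true := by decide +kernel

end Vale.Agent.Lib.P154Anti.Cert.D7
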